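import Vale.Agent.P088.H72.B.Defs
import Vale.Agent.P088.H639.En

/-!
# P088, stage 2 (no contact at the boundary) with the data given by the Dirichlet principle: rows
-/

open MeasureTheory Set
open scoped ContDiff Matrix

noncomputable section

namespace Vale.Agent.P088.LR.B

open Vale.Agent.P088.LR Vale.Agent.P088.H639

/-- (BOREL) formal harmonic coordinates `x + w x` of infinite order at the boundary, small. -/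
def RowBOREL : Prop := ∀ {n : ℕ} (ρ : V n → ℝ), Dom ρ → ∀ (k : ℕ) (ε : ℝ), 0 < ε →
  ∃ (K : ℕ) (δ : ℝ), 0 < δ ∧ ∀ s : MF n, SmM s → (∀ x, (s x).IsSymm) →
  (∀ i j, Cl K δ (fun x => s x i j - dl i j)) →
  ∃ w : V n → V n, ContDiff ℝ ∞ w ∧ Cl k ε w ∧ (∀ x, ρ x = 0 → w x = 0) ∧
    (∀ a x, ρ x = 0 → gr s (fun y => y a + w y a) ρ x = pd a ρ x) ∧
    ∀ a (m : ℕ), ∃ r > 0, ∃ E : V n → ℝ, ContDiff ℝ ∞ E ∧ ∀ x, |ρ x| < r →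
      dr s (fun y => y a + w y a) x = ρ x ^ m * E x

/-- (MAPE) transport by `x ↦ x + w x`, `w = 0` on the boundary. -/
def RowMAPE : Prop := ∀ {n : ℕ} (ρ : V n → ℝ), Dom ρ → ∀ (w K : V n → V n), Dif univ w K →
  (∀ x, ρ x = 0 → w x = 0) → Cl 1 (1 / 2) w →
  (∀ x, 0 < ρ (x + w x) ↔ 0 < ρ x) ∧ ∀ s : MF n, SmM s → (∀ x, (s x).PosSemidef) →
    SmM (psh s w K) ∧ (∀ x, (psh s w K x).PosSemidef) ∧
    (SE (Om ρ) (fun _ => 1) s → SE (Om ρ) (fun _ => 1) (psh s w K)) ∧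
    ((∀ a x, ρ x = 0 → gr s (fun y => y a + w y a) ρ x = pd a ρ x) →
      ∀ a x, ρ x = 0 → ∑ j, (psh s w K x a j - dl a j) * pd j ρ x = 0) ∧
    ∀ a (m : ℕ), (∃ r > 0, ∃ E : V n → ℝ, ContDiff ℝ ∞ E ∧ ∀ x, |ρ x| < r →
      dr s (fun y => y a + w y a) x = ρ x ^ m * E x) →
      ∃ r > 0, ∃ E : V n → ℝ, ContDiff ℝ ∞ E ∧ ∀ x, |ρ x| < r →
        ∑ j, pd j (fun y => psh s w K y a j) x = ρ x ^ m * E x

/-- (ENE) energy estimate from equal energies: `t - 1` is quadratically small on harmonic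
functions. -/
def RowENE : Prop := ∀ {n : ℕ} (ρ : V n → ℝ), Dom ρ → ∀ t : MF n, SmM t →
  (∀ x, (t x).PosSemidef) → SE (Om ρ) (fun _ => 1) t →
  (∀ x ∈ Om ρ, ∀ i j, |t x i j - dl i j| ≤ 1 / (2 * (n + 1))) →
  ∀ U : V n → ℂ, ContDiff ℝ ∞ U → (∀ x ∈ Om ρ, dv (fun _ => 1) U x = 0) →
  ‖bl (Om ρ) (fun x => t x - 1) U (fun x => (starRingEnd ℂ) (U x))‖ ≤
    2 * n * ∫ x in Om ρ, ∑ i, ∑ j, |t x i j - dl i j| ^ 2 * ‖pd j U x‖ ^ 2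

/-- (BDE) the boundary step; from CONC, ENE. -/
def RowBDE : Prop := ∀ {n : ℕ}, 3 ≤ n → ∃ a₀ > 0, ∀ (ρ : V n → ℝ), Dom ρ → ∀ t : MF n, SmM t →
  (∀ x, (t x).PosSemidef) → SE (Om ρ) (fun _ => 1) t →
  (∀ x ∈ Om ρ, ∀ i j, |t x i j - dl i j| ≤ a₀) → ∀ (m : ℕ) (b : Fin n → Fin n → V n → ℝ),
  (∀ i j, ContDiff ℝ ∞ (b i j)) → (∀ i j x, b i j x = b j i x) →
  (∀ x i j, t x i j - dl i j = ρ x ^ m * b i j x) →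
  (∀ x, ρ x = 0 → ∀ i, ∑ j, b i j x * pd j ρ x = 0) → ∀ x, ρ x = 0 → ∀ i j, b i j x = 0

/-- (INFE) contact of infinite order; from HAD, BDE, TOPO. -/
def RowINFE : Prop := ∀ {n : ℕ}, 3 ≤ n → ∃ a₀ > 0, ∀ (ρ : V n → ℝ), Dom ρ → ∀ t : MF n, SmM t →
  (∀ x, (t x).PosSemidef) → SE (Om ρ) (fun _ => 1) t →
  (∀ x ∈ Om ρ, ∀ i j, |t x i j - dl i j| ≤ a₀) →
  (∀ a x, ρ x = 0 → ∑ j, (t x a j - dl a j) * pd j ρ x = 0) →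
  (∀ a (m : ℕ), ∃ r > 0, ∃ E : V n → ℝ, ContDiff ℝ ∞ E ∧ ∀ x, |ρ x| < r →
    ∑ j, pd j (fun y => t y a j) x = ρ x ^ m * E x) →
  ∀ m : ℕ, ∃ b : Fin n → Fin n → V n → ℝ, (∀ i j, ContDiff ℝ ∞ (b i j)) ∧
    ∀ x i j, t x i j - dl i j = ρ x ^ m * b i j x

/-- (FINE) local rigidity of the flat metric on a smooth domain, no condition at the boundary. -/
def RowFINE : Prop := ∀ n : ℕ, 3 ≤ n → ∀ ρ : V n → ℝ, Dom ρ → ∃ (k : ℕ) (ε : ℝ), 0 < ε ∧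
  ∀ g : MF n, SmM g → (∀ x, (g x).PosDef) → (∀ i j, Cl k ε (fun x => g x i j - dl i j)) →
  SE (Om ρ) (fun _ => 1) (sg g) → ∃ Φ Ψ : V n → V n, ContDiff ℝ ∞ Φ ∧ ContDiff ℝ ∞ Ψ ∧
    (∀ x, Ψ (Φ x) = x) ∧ (∀ y, Φ (Ψ y) = y) ∧ (∀ x, ρ x = 0 → Φ x = x) ∧
    (∀ x, 0 < ρ (Φ x) ↔ 0 < ρ x) ∧ (∀ x, 0 < (Jm Φ x).det) ∧
    ∀ x, 0 ≤ ρ x → g x = (Jm Φ x)ᵀ * Jm Φ x

end Vale.Agent.P088.LR.B
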