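import Vale.Agent.P088.H198.Defs2

/-!
# P088, local rigidity of the flat metric WITHOUT contact at the boundary: definitions and rows
-/

open MeasureTheory Set
open scoped ContDiff Matrix

noncomputable section

namespace Vale.Agent.P088.LR.B

open Vale.Agent.P088.LR

variable {n : ℕ}

/-- `{ρ > 0}` is a smooth bounded domain in the core of the unit cube. -/
structure Dom (ρ : V n → ℝ) : Prop where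
  sm : ContDiff ℝ ∞ ρ
  off : ∀ x ∉ core n, ρ x = -1
  nz : ∀ x, ρ x = 0 → fderiv ℝ ρ x ≠ 0

/-- The domain. -/
def Om (ρ : V n → ℝ) : Set (V n) := {x | 0 < ρ x}

/-- `δ_ij`. -/
abbrev dl (i j : Fin n) : ℝ := (1 : Matrix (Fin n) (Fin n) ℝ) i j

/-- `div (s ∇ u)`, real. -/
def dr (s : MF n) (u : V n → ℝ) (x : V n) : ℝ := ∑ i, pd i (fun y => ∑ j, s y i j * pd j u y) x

/-- `s (∇ u, ∇ v)` at `x`, real. -/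
def gr (s : MF n) (u v : V n → ℝ) (x : V n) : ℝ := ∑ i, ∑ j, s x i j * pd i u x * pd j v x

/-- `x ↦ x + w x` is harmonic for `s` near `∂Ω`, with the right conormal derivative (weakly). -/
def Nb (ρ : V n → ℝ) (s : MF n) (w : V n → V n) (r : ℝ) : Prop :=
  ∀ a, ∀ φ : V n → ℝ, ContDiff ℝ ∞ φ → (∀ x, r ≤ |ρ x| → φ x = 0) →
    ∫ x in Om ρ, gr s (fun y => y a + w y a) φ x = ∫ x in Om ρ, pd a φ x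

/-- Jacobian matrix. -/
def Jm (Φ : V n → V n) (x : V n) : Matrix (Fin n) (Fin n) ℝ := fun i j => pd j Φ x i

/-! ## Rows -/

/-- (TOPO) topology of the domain. -/
def RowTOPO : Prop := ∀ {n : ℕ} (ρ : V n → ℝ), Dom ρ → IsOpen (Om ρ) ∧ Om ρ ⊆ core n ∧
  frontier (Om ρ) = {x | ρ x = 0} ∧ closure (Om ρ) = {x | 0 ≤ ρ x} ∧
  interior (closure (Om ρ)) = Om ρ ∧ Dense {x | ρ x ≠ 0}

/-- (HAD) division by `ρ`. -/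
def RowHAD : Prop := ∀ {n : ℕ} (ρ : V n → ℝ), ContDiff ℝ ∞ ρ →
  (∀ x, ρ x = 0 → fderiv ℝ ρ x ≠ 0) → ∀ f : V n → ℝ, ContDiff ℝ ∞ f → (∀ x, ρ x = 0 → f x = 0) →
  ∃ g : V n → ℝ, ContDiff ℝ ∞ g ∧ ∀ x, f x = ρ x * g x

/-- (DIVX) weak equation up to the boundary: divergence and normal component vanish. -/
def RowDIVX : Prop := ∀ {n : ℕ} (ρ : V n → ℝ), Dom ρ → ∀ r > 0, ∀ X : Fin n → V n → ℝ,
  (∀ i, ContDiff ℝ ∞ (X i)) →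
  (∀ φ : V n → ℝ, ContDiff ℝ ∞ φ → (∀ x, r ≤ |ρ x| → φ x = 0) →
    ∫ x in Om ρ, ∑ i, X i x * pd i φ x = 0) →
  (∀ x, 0 < ρ x → ρ x < r → ∑ i, pd i (X i) x = 0) ∧ ∀ x, ρ x = 0 → ∑ i, X i x * pd i ρ x = 0

/-- (HC) harmonic coordinates with the same Cauchy data as the identity. -/
def RowHC : Prop := ∀ {n : ℕ} (ρ : V n → ℝ), Dom ρ → ∀ s : MF n, SmM s → (∀ x, (s x).IsSymm) →
  SD (Om ρ) (fun _ => 1) s → ∃ w : V n → V n, ContDiff ℝ ∞ w ∧ (∀ x, ρ x = 0 → w x = 0) ∧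
    ∀ r, Nb ρ s w r

/-- (SER) formal series: approximate harmonic coordinates near the boundary, small. -/
def RowSER : Prop := ∀ {n : ℕ} (ρ : V n → ℝ), Dom ρ → ∀ (k : ℕ) (ε : ℝ), 0 < ε →
  ∃ (K : ℕ) (δ : ℝ), 0 < δ ∧ ∀ s : MF n, SmM s → (∀ x, (s x).IsSymm) →
  (∀ i j, Cl K δ (fun x => s x i j - dl i j)) →
  ∀ a : Fin n, ∃ c E : V n → ℝ, ContDiff ℝ ∞ c ∧ ContDiff ℝ ∞ E ∧ Cl k ε (fun x => ρ x * c x) ∧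
    (∀ x, ρ x = 0 → ∑ i, pd i ρ x * s x i a + gr s ρ ρ x * c x = pd a ρ x) ∧
    ∃ r > 0, ∀ x, |ρ x| < r → dr s (fun y => y a + ρ y * c y) x = ρ x ^ (k - 1) * E x

/-- (JET) a function with zero Cauchy data and `div (s ∇ R) = O(ρ^(k-1))` is `O(ρ^(k+1))`. -/
def RowJET : Prop := ∀ {n : ℕ} (ρ : V n → ℝ), Dom ρ → ∀ (k : ℕ) (s : MF n), SmM s →
  (∀ x, (s x).PosDef) → ∀ R E : V n → ℝ, ContDiff ℝ ∞ R → ContDiff ℝ ∞ E →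
  (∀ x, ρ x = 0 → R x = 0) → (∀ x, ρ x = 0 → gr s ρ R x = 0) → ∀ r > 0,
  (∀ x, 0 < ρ x → ρ x < r → dr s R x = ρ x ^ (k - 1) * E x) →
  ∃ Q : V n → ℝ, ContDiff ℝ ∞ Q ∧ ∀ x, R x = ρ x ^ (k + 1) * Q x

/-- (CUT) `ρ^(k+1) Q` cut off near the boundary is small in `C^k`. -/
def RowCUT : Prop := ∀ {n : ℕ} (ρ : V n → ℝ), Dom ρ → ∀ (k : ℕ) (Q : V n → ℝ), ContDiff ℝ ∞ Q →
  ∀ ε > 0, ∃ f : V n → ℝ, ContDiff ℝ ∞ f ∧ Cl k ε f ∧ (∀ x, ρ x = 0 → f x = 0) ∧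
    ∃ r > 0, ∀ x, |ρ x| < r → f x = ρ x ^ (k + 1) * Q x

/-- (NB) small coordinate change near the boundary; from HC, DIVX, SER, JET, CUT. -/
def RowNB : Prop := ∀ {n : ℕ} (ρ : V n → ℝ), Dom ρ → ∀ (k : ℕ) (ε : ℝ), 0 < ε →
  ∃ (K : ℕ) (δ : ℝ), 0 < δ ∧ ∀ s : MF n, SmM s → (∀ x, (s x).PosDef) →
  (∀ i j, Cl K δ (fun x => s x i j - dl i j)) → SD (Om ρ) (fun _ => 1) s →
  ∃ w : V n → V n, ContDiff ℝ ∞ w ∧ Cl k ε w ∧ (∀ x, ρ x = 0 → w x = 0) ∧ ∃ r > 0, Nb ρ s w r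

/-- (MAP) transport by `x ↦ x + w x`, `w = 0` on the boundary. -/
def RowMAP : Prop := ∀ {n : ℕ} (ρ : V n → ℝ), Dom ρ → ∀ (w K : V n → V n), Dif univ w K →
  (∀ x, ρ x = 0 → w x = 0) → Cl 1 (1 / 2) w →
  (∀ x, 0 < ρ (x + w x) ↔ 0 < ρ x) ∧ ∀ s : MF n, SmM s → (∀ x, (s x).IsSymm) →
    SmM (psh s w K) ∧ (∀ x, (psh s w K x).IsSymm) ∧
    (SD (Om ρ) (fun _ => 1) s → SD (Om ρ) (fun _ => 1) (psh s w K)) ∧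
    ∀ r > 0, Nb ρ s w r → ∃ r' > 0, ∀ a, ∀ φ : V n → ℝ, ContDiff ℝ ∞ φ →
      (∀ x, r' ≤ |ρ x| → φ x = 0) → ∫ x in Om ρ, ∑ j, (psh s w K x a j - dl a j) * pd j φ x = 0

/-- (CONC) harmonic functions concentrating at a boundary point (`ν` = inward unit normal, `τ` a
unit tangent vector). -/
def RowCONC : Prop := ∀ {n : ℕ}, 3 ≤ n → ∀ (ρ : V n → ℝ), Dom ρ → ∀ p, ρ p = 0 → ∀ ν τ : V n,
  ∑ i, ν i ^ 2 = 1 → ∑ i, τ i ^ 2 = 1 → ∑ i, ν i * τ i = 0 → (∃ c > 0, ∀ i, pd i ρ p = c * ν i) →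
  ∀ (j : ℕ) (ε : ℝ), 0 < ε → ∃ U : V n → ℂ, ContDiff ℝ ∞ U ∧
    (∀ x ∈ Om ρ, dv (fun _ => 1) U x = 0) ∧ ∃ M > 0, M = (∫ x in Om ρ, ρ x ^ j * ∑ i, ‖pd i U x‖ ^ 2) ∧
      (∫ x in {x | x ∈ Om ρ ∧ ε ≤ dist x p}, ∑ i, ‖pd i U x‖ ^ 2) ≤ ε * M ∧
      ∀ a b, ∫ x in Om ρ, ρ x ^ j * ‖2 * (pd a U x * (starRingEnd ℂ) (pd b U x)) -
        ((ν a : ℂ) + Complex.I * τ a) * ((ν b : ℂ) - Complex.I * τ b) *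
          ((∑ i, ‖pd i U x‖ ^ 2 : ℝ) : ℂ)‖ ≤ ε * M

/-- (EN) energy estimate: the form `t - 1` on harmonic functions is quadratically small. -/
def RowEN : Prop := ∀ {n : ℕ} (ρ : V n → ℝ), Dom ρ → ∀ t : MF n, SmM t → (∀ x, (t x).IsSymm) →
  SD (Om ρ) (fun _ => 1) t → (∀ x ∈ Om ρ, ∀ i j, |t x i j - dl i j| ≤ 1 / (2 * (n + 1))) →
  ∀ U : V n → ℂ, ContDiff ℝ ∞ U → (∀ x ∈ Om ρ, dv (fun _ => 1) U x = 0) →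
  ‖bl (Om ρ) (fun x => t x - 1) U (fun x => (starRingEnd ℂ) (U x))‖ ≤
    2 * n * ∫ x in Om ρ, ∑ i, ∑ j, |t x i j - dl i j| ^ 2 * ‖pd j U x‖ ^ 2

/-- (BD) the boundary step; from CONC, EN. -/
def RowBD : Prop := ∀ {n : ℕ}, 3 ≤ n → ∃ a₀ > 0, ∀ (ρ : V n → ℝ), Dom ρ → ∀ t : MF n, SmM t →
  (∀ x, (t x).IsSymm) → SD (Om ρ) (fun _ => 1) t →
  (∀ x ∈ Om ρ, ∀ i j, |t x i j - dl i j| ≤ a₀) → ∀ (m : ℕ) (b : Fin n → Fin n → V n → ℝ),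
  (∀ i j, ContDiff ℝ ∞ (b i j)) → (∀ i j x, b i j x = b j i x) →
  (∀ x i j, t x i j - dl i j = ρ x ^ m * b i j x) →
  (∀ x, ρ x = 0 → ∀ i, ∑ j, b i j x * pd j ρ x = 0) → ∀ x, ρ x = 0 → ∀ i j, b i j x = 0

/-- (INF) contact of infinite order; from HAD, DIVX, BD, TOPO. -/
def RowINF : Prop := ∀ {n : ℕ}, 3 ≤ n → ∃ a₀ > 0, ∀ (ρ : V n → ℝ), Dom ρ → ∀ t : MF n, SmM t →
  (∀ x, (t x).IsSymm) → SD (Om ρ) (fun _ => 1) t →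
  (∀ x ∈ Om ρ, ∀ i j, |t x i j - dl i j| ≤ a₀) →
  (∃ r > 0, ∀ a, ∀ φ : V n → ℝ, ContDiff ℝ ∞ φ → (∀ x, r ≤ |ρ x| → φ x = 0) →
    ∫ x in Om ρ, ∑ j, (t x a j - dl a j) * pd j φ x = 0) →
  ∀ m : ℕ, ∃ b : Fin n → Fin n → V n → ℝ, (∀ i j, ContDiff ℝ ∞ (b i j)) ∧
    ∀ x i j, t x i j - dl i j = ρ x ^ m * b i j x

/-- (EXT) extension by zero. -/
def RowEXT : Prop := ∀ {n : ℕ} (ρ : V n → ℝ), Dom ρ → ∀ h : V n → ℝ, ContDiff ℝ ∞ h →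
  (∀ m : ℕ, ∃ g : V n → ℝ, ContDiff ℝ ∞ g ∧ ∀ x, h x = ρ x ^ m * g x) →
  ContDiff ℝ ∞ (fun x => if 0 < ρ x then h x else 0) ∧
    ∀ k ε, Cl k ε h → Cl k ε (fun x => if 0 < ρ x then h x else 0)

/-- (CHS) stage 1 for tensors `s`. -/
def RowCHS : Prop := ∀ n : ℕ, 3 ≤ n → ∃ (k : ℕ) (ε : ℝ), 0 < ε ∧ ∀ Ω : Set (V n), IsOpen Ω →
  interior (closure Ω) = Ω → Ω ⊆ core n → ∀ s : MF n, SmM s → (∀ x, (s x).IsSymm) →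
  (∀ x ∉ Ω, s x = 1) → (∀ i j, Cl k ε (fun x => s x i j - dl i j)) → Star Ω s →
  ∃ w K, Dif Ω w K ∧ ∀ x, psh s w K x = 1

/-- (ALG) algebra at a point. -/
def RowALG : Prop := ∀ {n : ℕ}, 3 ≤ n → ∀ g J : Matrix (Fin n) (Fin n) ℝ, g.PosDef → 0 < J.det →
  J.det⁻¹ • (J * (√g.det • g⁻¹) * Jᵀ) = 1 → g = Jᵀ * J

/-- (FIN) local rigidity of the flat metric on a smooth domain, no condition at the boundary. -/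
def RowFIN : Prop := ∀ n : ℕ, 3 ≤ n → ∀ ρ : V n → ℝ, Dom ρ → ∃ (k : ℕ) (ε : ℝ), 0 < ε ∧
  ∀ g : MF n, SmM g → (∀ x, (g x).PosDef) → (∀ i j, Cl k ε (fun x => g x i j - dl i j)) →
  SD (Om ρ) (fun _ => 1) (sg g) → ∃ Φ Ψ : V n → V n, ContDiff ℝ ∞ Φ ∧ ContDiff ℝ ∞ Ψ ∧
    (∀ x, Ψ (Φ x) = x) ∧ (∀ y, Φ (Ψ y) = y) ∧ (∀ x, ρ x = 0 → Φ x = x) ∧
    (∀ x, 0 < ρ (Φ x) ↔ 0 < ρ x) ∧ (∀ x, 0 < (Jm Φ x).det) ∧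
    ∀ x, 0 ≤ ρ x → g x = (Jm Φ x)ᵀ * Jm Φ x

end Vale.Agent.P088.LR.B
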