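import Vale.Agent.P088.H72.B.DefsE
import Vale.Agent.P088.H833.Top
import Vale.Agent.P088.H634.Dif
import Vale.Agent.P088.H158.PushA
import Vale.Agent.P088.H757.Weak
import Vale.Agent.P088.H639.Push

/-!
# P088, stage 2: the assembly
-/

open MeasureTheory Set
open scoped ContDiff Matrix

noncomputable section

namespace Vale.Agent.P088.LR.B

open Vale.Agent.P088.LR Vale.Agent.P088.H639 Vale.Agent.P088.LR.H72

variable {n : ℕ}

theorem Jm_comp {w w' : V n → V n} (hw : ContDiff ℝ ∞ w) (hw' : ContDiff ℝ ∞ w') (x : V n) :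
    Jm (fun x => (x + w x) + w' (x + w x)) x = jm w' (x + w x) * jm w x := by
  ext i j
  have h3 : HasFDerivAt (fun x => (x + w x) + w' (x + w x))
      ((ContinuousLinearMap.id ℝ (V n) + fderiv ℝ w' (x + w x)).comp
        (ContinuousLinearMap.id ℝ (V n) + fderiv ℝ w x)) x :=
    HasFDerivAt.comp x (f := fun x => x + w x) (H158.hasFDerivAt_H hw' (x + w x))
      (H158.hasFDerivAt_H hw x)
  show fderiv ℝ (fun x => (x + w x) + w' (x + w x)) x (Pi.single j 1) i = _
  rw [h3.fderiv, Matrix.mul_apply, ContinuousLinearMap.comp_apply]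
  conv_lhs => rw [H158.vec_eq ((ContinuousLinearMap.id ℝ (V n) + fderiv ℝ w x) (Pi.single j 1))]
  rw [map_sum, Finset.sum_apply]
  refine Finset.sum_congr rfl fun l _ => ?_
  rw [map_smul, Pi.smul_apply, smul_eq_mul, H158.H_apply, H158.H_apply, mul_comm]

theorem continuous_Jm {Φ : V n → V n} (h : ContDiff ℝ ∞ Φ) (i j : Fin n) :
    Continuous fun x => Jm Φ x i j := by
  have h1 : Continuous fun x => fderiv ℝ Φ x (Pi.single j 1) :=
    (h.continuous_fderiv (by simp)).clm_apply continuous_const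
  exact (continuous_apply i).comp h1

/-- `Star` only sees the values in `Ω`. -/
theorem star_congr {Ω : Set (V n)} (hO : IsOpen Ω) {s t : MF n} (h : ∀ x ∈ Ω, s x = t x)
    (hS : Star Ω t) : Star Ω s := by
  intro U W hU hW hU0 hW0
  have hdv : ∀ x ∈ Ω, dv t W x = 0 := by
    intro x hx
    rw [← hW0 x hx]
    unfold dv
    refine Finset.sum_congr rfl fun i _ => ?_
    unfold pd
    have : (fun y => ∑ j, (t y i j : ℂ) * fderiv ℝ W y (Pi.single j 1)) =ᶠ[nhds x]
        (fun y => ∑ j, (s y i j : ℂ) * fderiv ℝ W y (Pi.single j 1)) := by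
      filter_upwards [hO.mem_nhds hx] with y hy
      rw [h y hy]
    rw [this.fderiv_eq]
  rw [← hS U W hU hW hU0 hdv]
  unfold bl
  refine setIntegral_congr_fun hO.measurableSet fun x hx => ?_
  simp only [h x hx]

/-- The pointwise computation. -/
theorem alg_point (hA : RowALG) (hn : 3 ≤ n) {g : MF n} (hgp : ∀ x, (g x).PosDef)
    {w K w' K' : V n → V n} (D : Dif univ w K) {Ω : Set (V n)} (D' : Dif Ω w' K')
    {s' : MF n} (x : V n) (hs' : s' (x + w x) = psh (sg g) w K (x + w x))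
    (h1 : psh s' w' K' ((x + w x) + w' (x + w x)) = 1) :
    g x = (jm w' (x + w x) * jm w x)ᵀ * (jm w' (x + w x) * jm w x) := by
  refine hA hn _ _ (hgp x) ?_ ?_
  · rw [Matrix.det_mul]
    exact mul_pos (D'.dp _) (D.dp _)
  · have hne := (D.dp x).ne'
    have hne' := (D'.dp (x + w x)).ne'
    unfold psh at h1
    rw [D'.l, hs'] at h1
    unfold psh sg at h1
    rw [D.l] at h1
    rw [← h1, Matrix.det_mul, Matrix.transpose_mul, mul_inv]
    simp only [Matrix.mul_smul, Matrix.smul_mul, smul_smul, mul_assoc]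

/-- **The assembly of stage 2.** -/
theorem fine (hT : RowTOPO) (hB : RowBOREL) (hM : RowMAPE) (hI : RowINFE) (hE : RowEXT)
    (hC : RowCHS) (hA : RowALG) : RowFINE := by
  intro n hn ρ hρ
  obtain ⟨hO, hOc, hfr, hcl, hic, hde⟩ := hT ρ hρ
  have hbd : Bornology.IsBounded (Om ρ) := H833.bounded_core.subset hOc
  obtain ⟨kc, εc, hεc, hC⟩ := hC n hn
  obtain ⟨a₀, ha₀, hI⟩ := hI hn
  obtain ⟨C, ε₀, hC0, hε₀, hD⟩ := H634.rowDIF n kc
  set ε1 : ℝ := min εc a₀ / C with hε1
  have hε1p : 0 < ε1 := div_pos (lt_min hεc ha₀) hC0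
  obtain ⟨δ1, hδ1, hN1⟩ := norm1 n kc ε1 hε1p
  set ε2 : ℝ := min (min δ1 ε₀) (1 / 2) with hε2
  have hε2p : 0 < ε2 := lt_min (lt_min hδ1 hε₀) (by norm_num)
  obtain ⟨Kb, δ2, hδ2, hB⟩ := hB ρ hρ (kc + 1) ε2 hε2p
  obtain ⟨δ0, hδ0, hN0⟩ := norm0 n (max Kb kc) (min δ2 δ1) (lt_min hδ2 hδ1)
  refine ⟨max Kb kc, δ0, hδ0, fun g hg hgp hgs hSE => ?_⟩
  have hs : SmM (sg g) := H833.smM_sg hg hgp
  have hsym : ∀ x, (sg g x).IsSymm := H833.symm_sg hgp
  have hpsd : ∀ x, (sg g x).PosSemidef := psd_sg hgp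
  have hsm := hN0 g hg hgs
  have hsmK : ∀ i j, Cl Kb δ2 (fun x => sg g x i j - dl i j) := fun i j l hl x =>
    (hsm i j l (hl.trans (le_max_left _ _)) x).trans (min_le_left _ _)
  have hsmk : ∀ i j, Cl kc δ1 (fun x => sg g x i j - dl i j) := fun i j l hl x =>
    (hsm i j l (hl.trans (le_max_right _ _)) x).trans (min_le_right _ _)
  obtain ⟨w, hw, hwcl, hw0, hwn, hwd⟩ := hB (sg g) hs hsym hsmK
  obtain ⟨K, D, hcomp⟩ := hD univ w hw (fun x hx => absurd (mem_univ x) hx)
    (cl_mono hwcl ((min_le_left _ _).trans (min_le_right _ _)))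
  have hw1 : Cl 1 (1 / 2) w := fun l hl x => (hwcl l (by omega) x).trans (min_le_right _ _)
  obtain ⟨hside, hM⟩ := hM ρ hρ w K D hw0 hw1
  obtain ⟨ht, htp, htSE, htn, htd⟩ := hM (sg g) hs hpsd
  have htSE := htSE hSE
  have htn := htn hwn
  have htd : ∀ a (m : ℕ), ∃ r > 0, ∃ E : V n → ℝ, ContDiff ℝ ∞ E ∧ ∀ x, |ρ x| < r →
      ∑ j, pd j (fun y => psh (sg g) w K y a j) x = ρ x ^ m * E x := fun a m =>
    htd a m (hwd a m)
  have htcl := hN1 univ (sg g) w K C hs D hcomp hsmk
    (cl_mono hwcl ((min_le_left _ _).trans (min_le_left _ _)))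
  have hCe : C * ε1 = min εc a₀ := by rw [hε1]; field_simp
  rw [hCe] at htcl
  set t : MF n := psh (sg g) w K with htdef
  have hta : ∀ x ∈ Om ρ, ∀ i j, |t x i j - dl i j| ≤ a₀ := by
    intro x _ i j
    have h := htcl i j 0 (Nat.zero_le _) x
    rw [norm_iteratedFDeriv_zero, Real.norm_eq_abs] at h
    exact h.trans (min_le_right _ _)
  have hflat := hI ρ hρ t ht htp htSE hta htn htd
  -- the extension by `1`
  let s' : MF n := fun x => if 0 < ρ x then t x else 1
  have he : ∀ i j, (fun x => s' x i j - dl i j) =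
      fun x => if 0 < ρ x then (t x i j - dl i j) else 0 := by
    intro i j
    funext x
    by_cases hx : 0 < ρ x
    · simp only [s', hx, if_true]
    · simp only [s', hx, if_false]
      exact sub_self _
  have hext : ∀ i j, ContDiff ℝ ∞ (fun x => s' x i j - dl i j) ∧
      Cl kc (min εc a₀) (fun x => s' x i j - dl i j) := by
    intro i j
    have h := hE ρ hρ (fun x => t x i j - dl i j) ((ht i j).sub contDiff_const) fun m => by
      obtain ⟨b, hb, hb'⟩ := hflat m
      exact ⟨b i j, hb i j, fun x => hb' x i j⟩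
    rw [he i j]
    exact ⟨h.1, h.2 kc _ (htcl i j)⟩
  have hs'sm : SmM s' := by
    intro i j
    have h := (hext i j).1.add (contDiff_const (c := dl i j))
    have h2 : (fun x => s' x i j - dl i j + dl i j) = fun x => s' x i j := by
      funext x; ring
    rwa [h2] at h
  have htsym : ∀ x, (t x).IsSymm := H158.isSymm_psh D hsym
  have hs'sym : ∀ x, (s' x).IsSymm := by
    intro x
    by_cases hx : 0 < ρ x
    · simp only [s', hx, if_true]; exact htsym x
    · simp only [s', hx, if_false]; exact Matrix.isSymm_one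
  have hs'1 : ∀ x ∉ Om ρ, s' x = 1 := by
    intro x hx
    have hx' : ¬ 0 < ρ x := hx
    simp only [s', hx', if_false]
  have hs't : ∀ x ∈ Om ρ, s' x = t x := by
    intro x hx
    have hx' : 0 < ρ x := hx
    simp only [s', hx', if_true]
  have hstar : Star (Om ρ) s' :=
    star_congr hO hs't (star_of_SE weak hO hbd ht htsym htp htSE)
  obtain ⟨w', K', D', h1⟩ := hC (Om ρ) hO hic hOc s' hs'sm hs'sym hs'1
    (fun i j => cl_mono (hext i j).2 (min_le_left _ _)) hstar
  have hΦ : ContDiff ℝ ∞ (fun x => (x + w x) + w' (x + w x)) :=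
    (contDiff_id.add hw).add (D'.sw.comp (contDiff_id.add hw))
  have hin : ∀ y, y ∉ Om ρ → y + w' y = y := fun y hy => by rw [D'.z y hy, add_zero]
  have hinj : ∀ y z, y + w' y = z + w' z → y = z := fun y z h => by
    rw [← D'.l y, h, D'.l z]
  have hJ : ∀ x, Jm (fun x => (x + w x) + w' (x + w x)) x = jm w' (x + w x) * jm w x :=
    Jm_comp hw D'.sw
  refine ⟨fun x => (x + w x) + w' (x + w x), fun y => K (K' y), hΦ, D.sK.comp D'.sK, ?_, ?_, ?_,
    ?_, ?_, ?_⟩
  · intro x
    show K (K' ((x + w x) + w' (x + w x))) = x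
    rw [D'.l, D.l]
  · intro y
    show (K (K' y) + w (K (K' y))) + w' (K (K' y) + w (K (K' y))) = y
    rw [D.r, D'.r]
  · intro x hx
    have hx' : x ∉ Om ρ := fun h => by
      have : 0 < ρ x := h
      rw [hx] at this
      exact lt_irrefl _ this
    show (x + w x) + w' (x + w x) = x
    rw [hw0 x hx, add_zero]
    exact hin x hx'
  · intro x
    rw [← hside x]
    by_cases hy : x + w x ∈ Om ρ
    · refine ⟨fun _ => hy, fun _ => ?_⟩
      by_contra hc
      have h2 := hin _ hc
      have h3 := hinj _ _ h2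
      exact hc (h3 ▸ hy)
    · show 0 < ρ ((x + w x) + w' (x + w x)) ↔ _
      rw [hin _ hy]
  · intro x
    rw [hJ, Matrix.det_mul]
    exact mul_pos (D'.dp _) (D.dp _)
  · have hclosed : IsClosed {x | g x = (Jm (fun x => (x + w x) + w' (x + w x)) x)ᵀ *
        Jm (fun x => (x + w x) + w' (x + w x)) x} := by
      have hset : {x | g x = (Jm (fun x => (x + w x) + w' (x + w x)) x)ᵀ *
        Jm (fun x => (x + w x) + w' (x + w x)) x} = ⋂ i, ⋂ j, {x | g x i j =
          ((Jm (fun x => (x + w x) + w' (x + w x)) x)ᵀ *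
            Jm (fun x => (x + w x) + w' (x + w x)) x) i j} := by
        ext x
        simp only [mem_ofPred_eq, mem_iInter]
        exact ⟨fun h i j => by rw [h], fun h => Matrix.ext h⟩
      rw [hset]
      refine isClosed_iInter fun i => isClosed_iInter fun j => isClosed_eq (hg i j).continuous ?_
      simp only [Matrix.mul_apply, Matrix.transpose_apply]
      exact continuous_finsetSum _ fun l _ =>
        (continuous_Jm hΦ l i).mul (continuous_Jm hΦ l j)
    have hsub : Om ρ ⊆ {x | g x = (Jm (fun x => (x + w x) + w' (x + w x)) x)ᵀ *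
        Jm (fun x => (x + w x) + w' (x + w x)) x} := by
      intro x hx
      have hy : x + w x ∈ Om ρ := (hside x).2 hx
      show g x = _
      rw [hJ]
      exact alg_point hA hn hgp D D' x (hs't _ hy) (h1 _)
    intro x hx
    have hx' : x ∈ closure (Om ρ) := by rw [hcl]; exact hx
    exact closure_minimal hsub hclosed hx'

end Vale.Agent.P088.LR.B
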