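import Vale.Agent.P088.H72.B.DefsE
import Vale.Agent.P088.H639.Scale

/-!
# P088, stage 2: from the core of the unit cube to every smooth bounded domain
-/

open MeasureTheory Set
open scoped ContDiff Matrix

noncomputable section

namespace Vale.Agent.P088.LR.B

open Vale.Agent.P088.LR Vale.Agent.P088.H639 Vale.Agent.P088.LR.H925

variable {n : ℕ}

/-- `{ρ > 0}` is a smooth bounded domain. -/
structure SDom (ρ : V n → ℝ) : Prop where
  sm : ContDiff ℝ ∞ ρ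
  bd : Bornology.IsBounded {x | 0 ≤ ρ x}
  nz : ∀ x, ρ x = 0 → fderiv ℝ ρ x ≠ 0

/-- Local rigidity of the flat metric on every smooth bounded domain. -/
def FinS : Prop := ∀ n : ℕ, 3 ≤ n → ∀ ρ : V n → ℝ, SDom ρ → ∃ (k : ℕ) (ε : ℝ), 0 < ε ∧
  ∀ g : MF n, SmM g → (∀ x, (g x).PosDef) → (∀ i j, Cl k ε (fun x => g x i j - dl i j)) →
  SE (Om ρ) (fun _ => 1) (sg g) → ∃ Φ Ψ : V n → V n, ContDiff ℝ ∞ Φ ∧ ContDiff ℝ ∞ Ψ ∧
    (∀ x, Ψ (Φ x) = x) ∧ (∀ y, Φ (Ψ y) = y) ∧ (∀ x, ρ x = 0 → Φ x = x) ∧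
    (∀ x, 0 < ρ (Φ x) ↔ 0 < ρ x) ∧ (∀ x, 0 < (Jm Φ x).det) ∧
    ∀ x, 0 ≤ ρ x → g x = (Jm Φ x)ᵀ * Jm Φ x

/-- The centre of the cube. -/
def ctr (n : ℕ) : V n := fun _ => 1 / 2

theorem core_of_dist {y : V n} (h : dist y (ctr n) ≤ 1 / 4) : y ∈ core n := by
  intro j
  have h1 := (dist_le_pi_dist y (ctr n) j).trans h
  rw [Real.dist_eq, abs_le] at h1
  simp only [ctr] at h1
  constructor <;> linarith [h1.1, h1.2]

/-- Normalisation of the domain. -/
theorem exists_dom {ρ : V n → ℝ} (h : SDom ρ) : ∃ t : ℝ, 1 ≤ t ∧ ∃ ρ' : V n → ℝ, Dom ρ' ∧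
    (∀ y, 0 < ρ' y ↔ 0 < ρ (ps t y)) ∧ (∀ y, ρ' y = 0 ↔ ρ (ps t y) = 0) := by
  obtain ⟨R, hR⟩ := h.bd.subset_closedBall (0 : V n)
  set R' : ℝ := max R 1 with hR'
  have hR1 : 1 ≤ R' := le_max_right _ _
  set t : ℝ := 16 * R' with ht
  have ht0 : 0 < t := by positivity
  have ht1 : 1 ≤ t := by linarith
  let χ : ContDiffBump (ctr n) := ⟨1 / 8, 1 / 4, by norm_num, by norm_num⟩
  have hin : ∀ y, 0 ≤ ρ (ps t y) → dist y (ctr n) ≤ 1 / 16 := by
    intro y hy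
    have h1 : ps t y ∈ Metric.closedBall (0 : V n) R := hR hy
    rw [mem_closedBall_zero_iff] at h1
    have h2 : ‖ps t y‖ = t * dist y (ctr n) := by
      rw [ps, norm_smul, Real.norm_of_nonneg ht0.le, dist_eq_norm]
      rfl
    rw [h2] at h1
    have h3 : t * dist y (ctr n) ≤ R' := h1.trans (le_max_left _ _)
    have h4 : (16 * R') * dist y (ctr n) ≤ R' := h3
    nlinarith [dist_nonneg (x := y) (y := ctr n)]
  let ρ' : V n → ℝ := fun y => χ y * ρ (ps t y) - (1 - χ y)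
  have hχ1 : ∀ y, dist y (ctr n) ≤ 1 / 8 → χ y = 1 := fun y hy =>
    χ.one_of_mem_closedBall (Metric.mem_closedBall.2 hy)
  have hχle : ∀ y, χ y ≤ 1 := fun y => χ.le_one
  have hχ0 : ∀ y, 0 ≤ χ y := fun y => χ.nonneg
  -- case analysis
  have hA : ∀ y, 0 ≤ ρ (ps t y) → ρ' y = ρ (ps t y) := by
    intro y hy
    have h1 := hχ1 y ((hin y hy).trans (by norm_num))
    show χ y * ρ (ps t y) - (1 - χ y) = _
    rw [h1]; ring
  have hB : ∀ y, ρ (ps t y) < 0 → ρ' y < 0 := by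
    intro y hy
    show χ y * ρ (ps t y) - (1 - χ y) < 0
    rcases (hχle y).lt_or_eq with h1 | h1
    · have : χ y * ρ (ps t y) ≤ 0 := mul_nonpos_of_nonneg_of_nonpos (hχ0 y) hy.le
      linarith
    · rw [h1]; linarith
  have hz : ∀ y, ρ' y = 0 ↔ ρ (ps t y) = 0 := by
    intro y
    rcases lt_or_ge (ρ (ps t y)) 0 with h1 | h1
    · exact ⟨fun h2 => absurd h2 (hB y h1).ne, fun h2 => absurd h2 h1.ne⟩
    · rw [hA y h1]
  have hpos : ∀ y, 0 < ρ' y ↔ 0 < ρ (ps t y) := by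
    intro y
    rcases lt_or_ge (ρ (ps t y)) 0 with h1 | h1
    · exact ⟨fun h2 => absurd h2 (hB y h1).le.not_gt, fun h2 => absurd h2 h1.le.not_gt⟩
    · rw [hA y h1]
  have hsm : ContDiff ℝ ∞ ρ' :=
    (χ.contDiff.mul (h.sm.comp (contDiff_ps t))).sub (contDiff_const.sub χ.contDiff)
  refine ⟨t, ht1, ρ', ⟨hsm, ?_, ?_⟩, hpos, hz⟩
  · intro y hy
    have h1 : 1 / 4 < dist y (ctr n) := by
      by_contra hc
      exact hy (core_of_dist (not_lt.1 hc))
    have h2 : χ y = 0 := χ.zero_of_le_dist h1.le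
    show χ y * ρ (ps t y) - (1 - χ y) = -1
    rw [h2]; ring
  · intro y hy
    have h0 : ρ (ps t y) = 0 := (hz y).1 hy
    have h1 : dist y (ctr n) ≤ 1 / 16 := hin y h0.ge
    have h2 : ρ' =ᶠ[nhds y] fun y => ρ (ps t y) := by
      filter_upwards [Metric.ball_mem_nhds y (show (0 : ℝ) < 1 / 16 by norm_num)] with z hz'
      have h3 : dist z (ctr n) ≤ 1 / 8 := by
        have := dist_triangle z y (ctr n)
        have h4 : dist z y < 1 / 16 := hz'
        linarith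
      show χ z * ρ (ps t z) - (1 - χ z) = _
      rw [hχ1 z h3]; ring
    rw [h2.fderiv_eq]
    have h5 : HasFDerivAt (ps t) (t • ContinuousLinearMap.id ℝ (V n)) y := by
      have := ((hasFDerivAt_id (𝕜 := ℝ) y).sub_const (fun _ => (1 / 2 : ℝ))).const_smul t
      exact this
    have h6 : HasFDerivAt (fun y => ρ (ps t y))
        ((fderiv ℝ ρ (ps t y)).comp (t • ContinuousLinearMap.id ℝ (V n))) y :=
      HasFDerivAt.comp y (h.sm.differentiable (by simp) _).hasFDerivAt h5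
    rw [h6.fderiv]
    intro h7
    apply h.nz _ h0
    ext v
    have h8 := congrArg (fun T : V n →L[ℝ] ℝ => T v) h7
    simp only [ContinuousLinearMap.comp_apply, smul_apply,
      ContinuousLinearMap.id_apply, map_smul, smul_eq_mul, zero_apply] at h8
    rcases mul_eq_zero.1 h8 with h9 | h9
    · exact absurd h9 ht0.ne'
    · rw [h9]; rfl

theorem Jm_scale {Φ : V n → V n} (hΦ : ContDiff ℝ ∞ Φ) {t : ℝ} (ht : t ≠ 0) (x : V n) :
    Jm (fun x => ps t (Φ (ph t x))) x = Jm Φ (ph t x) := by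
  ext i j
  have h : HasFDerivAt (fun x => ps t (Φ (ph t x)))
      ((t • ContinuousLinearMap.id ℝ (V n)).comp ((fderiv ℝ Φ (ph t x)).comp
        (t⁻¹ • ContinuousLinearMap.id ℝ (V n)))) x :=
    HasFDerivAt.comp x (f := fun x => Φ (ph t x)) (fd_ps t _)
      (HasFDerivAt.comp x (f := ph t) (hΦ.differentiable (by simp) _).hasFDerivAt (fd_ph t x))
  show fderiv ℝ (fun x => ps t (Φ (ph t x))) x (Pi.single j 1) i = fderiv ℝ Φ (ph t x) _ i
  rw [h.fderiv]
  simp only [ContinuousLinearMap.comp_apply, smul_apply, ContinuousLinearMap.id_apply, map_smul,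
    smul_smul, inv_mul_cancel₀ ht, one_smul]

/-- **Scaling.** -/
theorem finS (hF : RowFINE) : FinS := by
  intro n hn ρ hρ
  obtain ⟨t, ht1, ρ', hρ', hpos, hz⟩ := exists_dom hρ
  have ht0 : 0 < t := by linarith
  obtain ⟨k, ε, hε, hF⟩ := hF n hn ρ' hρ'
  have hM : 0 < max 1 t ^ k := by positivity
  refine ⟨k, ε / max 1 t ^ k, by positivity, fun g hg hgp hC hSE => ?_⟩
  have hOm : Om ρ' = ps t ⁻¹' Om ρ := by
    ext y
    exact hpos y
  have hg' : SmM (rs t g) := fun i j => (hg i j).comp (contDiff_ps t)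
  have hC' : ∀ i j, Cl k ε (fun x => rs t g x i j - dl i j) := by
    intro i j
    have := cl_ps ((hg i j).sub contDiff_const) ht0 (hC i j)
    rwa [mul_div_cancel₀ _ hM.ne'] at this
  have hO : IsOpen (Om ρ) := isOpen_lt continuous_const hρ.sm.continuous
  have hSE' : SE (Om ρ') (fun _ => 1) (sg (rs t g)) := by
    rw [hOm]
    exact SE_ps t ht0 (Om ρ) hO (sg g) hSE
  obtain ⟨Φ, Ψ, hΦ, hΨ, h1, h2, h3, h4, h5, h6⟩ := hF (rs t g) hg' (fun x => hgp _) hC' hSE'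
  refine ⟨fun x => ps t (Φ (ph t x)), fun x => ps t (Ψ (ph t x)),
    (contDiff_ps t).comp (hΦ.comp (contDiff_ph t)), (contDiff_ps t).comp (hΨ.comp (contDiff_ph t)),
    ?_, ?_, ?_, ?_, ?_, ?_⟩
  · intro x
    show ps t (Ψ (ph t (ps t (Φ (ph t x))))) = x
    rw [ph_ps ht0.ne', h1, ps_ph ht0.ne']
  · intro x
    show ps t (Φ (ph t (ps t (Ψ (ph t x))))) = x
    rw [ph_ps ht0.ne', h2, ps_ph ht0.ne']
  · intro x hx
    show ps t (Φ (ph t x)) = x
    rw [h3 (ph t x) ((hz _).2 (by rw [ps_ph ht0.ne']; exact hx)), ps_ph ht0.ne']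
  · intro x
    show 0 < ρ (ps t (Φ (ph t x))) ↔ _
    rw [← hpos, h4, hpos, ps_ph ht0.ne']
  · intro x
    rw [Jm_scale hΦ ht0.ne']
    exact h5 _
  · intro x hx
    rw [Jm_scale hΦ ht0.ne']
    have hx' : 0 ≤ ρ' (ph t x) := by
      rcases hx.lt_or_eq with h | h
      · exact ((hpos _).2 (by rw [ps_ph ht0.ne']; exact h)).le
      · exact ((hz _).2 (by rw [ps_ph ht0.ne']; exact h.symm)).ge
    have := h6 (ph t x) hx'
    have e : rs t g (ph t x) = g x := by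
      show g (ps t (ph t x)) = g x
      rw [ps_ph ht0.ne']
    rwa [e] at this

end Vale.Agent.P088.LR.B
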