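import Vale.Agent.P088.H397.BInf
import Vale.Agent.P088.H158.BMapE
import Vale.Agent.P088.H364.BChs
import Vale.Agent.P088.H364.BAlg
import Vale.Agent.P088.H292.BExt
import Vale.Agent.P088.H873.BTopo
import Vale.Agent.P088.H641.BHad
import Vale.Agent.P088.H109.BEn
import Vale.Agent.P088.H43.B.Bde
import Vale.Agent.P088.H501.BorelRow
import Vale.Agent.P088.H72.B.Fin
import Vale.Agent.P088.H72.B.Sc

/-!
# P088, stage 2: the theorem over BOREL and BDE
-/

noncomputable section

namespace Vale.Agent.P088.LR.B

/-- Local rigidity of the flat metric on every smooth bounded domain, over the two last rows. -/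
theorem finS_of (hB : RowBOREL) (hBD : RowBDE) : FinS :=
  finS (fine H873.topo hB H158.mape (H397.infe H641.rowHAD hBD H873.topo) H292.ext H364.chs
    H364.alg)

/-- Local rigidity of the flat metric on every smooth bounded domain, over the last row. -/
theorem finS_of_borel (hB : RowBOREL) : FinS := finS_of hB (H43.bde' H109.ene)

/-- **Local rigidity of the flat metric on every smooth bounded domain.** -/
theorem finS_all : FinS := finS_of_borel H501B.rowBOREL

end Vale.Agent.P088.LR.B
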